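import Mathlib

namespace Vale.Agent.P037

def blk (h t a b : ℕ) : Prop :=
  if t ≤ h then 2 ^ t ≤ a / 2 ^ (h - t) + b / 2 ^ (h - t) + 1
  else 2 ^ (2 * h + 1 - t) ≤ a / 2 ^ (t - h - 1) + b / 2 ^ (t - h - 1)

def bit (h t a : ℕ) : Bool :=
  decide (a / 2 ^ (if t < h then h - t - 1 else t - h - 1) % 2 = 1)

def srcOK (h t : ℕ) (x : Bool) (b : ℕ) : Prop := t ≤ h ∨ bit h t b ≠ x
def tgtOK (h t : ℕ) (x : Bool) (b : ℕ) : Prop := h ≤ t ∨ bit h t b ≠ x

theorem blk_symm {h t a b : ℕ} : blk h t a b ↔ blk h t b a := by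
  unfold blk
  split_ifs <;> constructor <;> intro h <;> omega

theorem blk_mono {h t a b b' : ℕ} (hb : b ≤ b') (H : blk h t a b) : blk h t a b' := by
  unfold blk at H ⊢
  split_ifs at H ⊢
  · have := Nat.div_le_div_right (c := 2 ^ (h - t)) hb
    omega
  · have := Nat.div_le_div_right (c := 2 ^ (t - h - 1)) hb
    omega

theorem blk_zero (h a b : ℕ) : blk h 0 a b := by
  unfold blk
  rw [if_pos (Nat.zero_le _)]
  simp

theorem not_blk_last {h a b : ℕ} (ha : a < 2 ^ h) (hb : b < 2 ^ h) : ¬ blk h (2 * h + 1) a b := by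
  unfold blk
  rw [if_neg (by omega)]
  have e1 : 2 * h + 1 - h - 1 = h := by omega
  rw [e1, Nat.div_eq_of_lt ha, Nat.div_eq_of_lt hb]
  simp

theorem blk_step {h t a b' b : ℕ} {x : Bool} (ht : t ≤ 2 * h) (hb : b' ≤ b)
    (hm : bit h t a = x) (hs : srcOK h t x b') (hg : tgtOK h t x b) (h1 : blk h t a b')
    (h2 : ¬ blk h (t + 1) a b) : a + b + 1 = 2 ^ h := by
  unfold blk at h1 h2
  unfold srcOK at hs
  unfold tgtOK at hg
  unfold bit at hm hs hg
  rcases lt_trichotomy t h with hlt | heq | hgt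
  · exfalso
    rw [if_pos hlt.le] at h1
    rw [if_pos (by omega : t + 1 ≤ h)] at h2
    rw [if_pos hlt] at hm hg
    have e1 : h - t = (h - t - 1) + 1 := by omega
    have e2 : h - (t + 1) = h - t - 1 := by omega
    rw [e1, pow_succ, ← Nat.div_div_eq_div_mul, ← Nat.div_div_eq_div_mul] at h1
    rw [e2, pow_succ] at h2
    have hle := Nat.div_le_div_right (c := 2 ^ (h - t - 1)) hb
    rcases hg with hg | hg
    · omega
    · rw [← hm] at hg
      simp only [ne_eq, decide_eq_decide] at hg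
      omega
  · subst heq
    rw [if_pos le_rfl] at h1
    rw [if_neg (by omega)] at h2
    have e1 : 2 * t + 1 - (t + 1) = t := by omega
    have e2 : t + 1 - t - 1 = 0 := by omega
    rw [e1, e2] at h2
    simp only [Nat.sub_self, pow_zero, Nat.div_one] at h1 h2
    omega
  · exfalso
    rw [if_neg (by omega)] at h1
    rw [if_neg (by omega)] at h2
    rw [if_neg (by omega)] at hm hs
    have e1 : t + 1 - h - 1 = (t - h - 1) + 1 := by omega
    have e2 : 2 * h + 1 - t = (2 * h + 1 - (t + 1)) + 1 := by omega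
    rw [e1, pow_succ, ← Nat.div_div_eq_div_mul, ← Nat.div_div_eq_div_mul] at h2
    rw [e2, pow_succ] at h1
    have hle := Nat.div_le_div_right (c := 2 ^ (t - h - 1)) hb
    rcases hs with hs | hs
    · omega
    · rw [← hm] at hs
      simp only [ne_eq, decide_eq_decide] at hs
      omega

theorem div_compl {d M a b : ℕ} (hd : 0 < d) (hab : a + b + 1 = d * M) :
    a / d + b / d + 1 = M := by
  have h1 := Nat.div_add_mod a d
  have h2 := Nat.div_add_mod b d
  have h3 := Nat.mod_lt a hd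
  have h4 := Nat.mod_lt b hd
  generalize a / d = A at *
  generalize b / d = B at *
  generalize a % d = r at *
  generalize b % d = s at *
  have h5 : d * (A + B) < d * M := by nlinarith
  have h6 : d * M < d * (A + B + 2) := by nlinarith
  have := Nat.lt_of_mul_lt_mul_left h5
  have := Nat.lt_of_mul_lt_mul_left h6
  omega

theorem bit_compl {h t a b : ℕ} (hh : 1 ≤ h) (ht : t ≤ 2 * h) (hab : a + b + 1 = 2 ^ h) :
    bit h t b ≠ bit h t a := by
  unfold bit
  obtain ⟨e, he⟩ : ∃ e, e = if t < h then h - t - 1 else t - h - 1 := ⟨_, rfl⟩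
  rw [← he]
  have hlt : e < h := by
    rw [he]
    split_ifs <;> omega
  have e1 : 2 ^ h = 2 ^ e * (2 * 2 ^ (h - e - 1)) := by
    rw [← pow_succ', ← pow_add]
    congr 1
    omega
  have := div_compl (Nat.pos_of_ne_zero (by positivity)) (hab.trans e1)
  simp only [ne_eq, decide_eq_decide]
  omega

end Vale.Agent.P037
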