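import Mathlib
import Vale.Agent.P037.Arith

namespace Vale.Agent.P037

abbrev Kind := Option (Bool × Fin 42)
abbrev Cls (h : ℕ) := (Fin (2 * h + 1) × Bool × Kind) ⊕ Fin (2 * h + 3)

structure V (h : ℕ) where
  c : Cls h
  i : Fin (2 ^ h)
  deriving DecidableEq

def V.equiv (h : ℕ) : V h ≃ Cls h × Fin (2 ^ h) where
  toFun v := (v.c, v.i)
  invFun p := ⟨p.1, p.2⟩
  left_inv _ := rfl
  right_inv _ := rfl

instance (h : ℕ) : Fintype (V h) := Fintype.ofEquiv _ (V.equiv h).symm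

def kc : Kind → ℕ
  | none => 90
  | some (true, i) => 45 + i
  | some (false, i) => i

theorem kc_lt (κ : Kind) : kc κ < 100 := by
  rcases κ with _ | ⟨_ | _, i⟩ <;> simp only [kc] <;> omega

theorem kc_inj {κ κ' : Kind} (h : kc κ = kc κ') : κ = κ' := by
  rcases κ with _ | ⟨_ | _, i⟩ <;> rcases κ' with _ | ⟨_ | _, j⟩ <;> simp only [kc] at h <;>
    first | rfl | omega | (have : i = j := Fin.ext (by omega); rw [this])

def key {h : ℕ} : V h → ℕ × ℕ × ℕ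
  | ⟨Sum.inl (t, x, κ), i⟩ => (0, (2 * t + x.toNat) * 100 + kc κ, i)
  | ⟨Sum.inr s, i⟩ => (1, i, s)

theorem key_inj {h : ℕ} : Function.Injective (key (h := h)) := by
  rintro ⟨⟨t, x, κ⟩ | s, i⟩ ⟨⟨t', x', κ'⟩ | s', i'⟩ H <;> simp only [key, Prod.mk.injEq] at H
  · have h1 := kc_lt κ
    have h2 := kc_lt κ'
    have h3 : κ = κ' := kc_inj (by omega)
    have h4 : x = x' := by
      cases x <;> cases x' <;> simp only [Bool.toNat_false, Bool.toNat_true] at H <;>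
        first | rfl | omega
    subst h3 h4
    have h5 : t = t' := Fin.ext (by omega)
    have h6 : i = i' := Fin.ext (by omega)
    subst h5 h6
    rfl
  · omega
  · omega
  · have h5 : s = s' := Fin.ext (by omega)
    have h6 : i = i' := Fin.ext (by omega)
    subst h5 h6
    rfl

def lkey {h : ℕ} (v : V h) : ℕ ×ₗ ℕ ×ₗ ℕ := toLex ((key v).1, toLex (key v).2)

theorem lkey_inj {h : ℕ} : Function.Injective (lkey (h := h)) := by
  intro u v H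
  apply key_inj
  simp only [lkey, toLex_inj, Prod.mk.injEq] at H
  exact Prod.ext H.1 H.2

instance (h : ℕ) : LinearOrder (V h) := LinearOrder.lift' lkey lkey_inj

theorem lt_iff {h : ℕ} {u v : V h} : u < v ↔ (key u).1 < (key v).1 ∨ ((key u).1 = (key v).1 ∧
    ((key u).2.1 < (key v).2.1 ∨ ((key u).2.1 = (key v).2.1 ∧ (key u).2.2 < (key v).2.2))) := by
  show lkey u < lkey v ↔ _
  unfold lkey
  rw [Prod.Lex.toLex_lt_toLex]
  simp only
  rw [Prod.Lex.toLex_lt_toLex]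

def role (h : ℕ) (t : ℕ) (x σ : Bool) (i : Fin 42) (s b : ℕ) : Prop :=
  if σ = true then
    (i = 0 ∧ s = t ∧ srcOK h t x b) ∨ (i = 1 ∧ s = t + 2 ∧ tgtOK h t x b)
  else i = 1 ∧ s = t + 1 ∧ bit h t b = x

def adj {h : ℕ} : V h → V h → Prop
  | ⟨Sum.inl (t, x, some (σ, i)), _⟩, ⟨Sum.inl (t', x', some (σ', j)), _⟩ =>
      t = t' ∧ x = x' ∧ σ ≠ σ' ∧ i ≠ j
  | ⟨Sum.inl (t, x, none), _⟩, ⟨Sum.inl (t', x', some (σ', j)), _⟩ =>
      t = t' ∧ x = x' ∧ σ' = false ∧ j = 0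
  | ⟨Sum.inl (t, x, some (σ, i)), _⟩, ⟨Sum.inl (t', x', none), _⟩ =>
      t = t' ∧ x = x' ∧ σ = false ∧ i = 0
  | ⟨Sum.inl (_, _, none), _⟩, ⟨Sum.inl (_, _, none), _⟩ => False
  | ⟨Sum.inl (t, x, some (σ, i)), _⟩, ⟨Sum.inr s, b⟩ => role h t x σ i s b
  | ⟨Sum.inr s, b⟩, ⟨Sum.inl (t, x, some (σ, i)), _⟩ => role h t x σ i s b
  | ⟨Sum.inl (t, _, none), _⟩, ⟨Sum.inr s, _⟩ => (s : ℕ) = t ∨ (s : ℕ) = t + 2
  | ⟨Sum.inr s, _⟩, ⟨Sum.inl (t, _, none), _⟩ => (s : ℕ) = t ∨ (s : ℕ) = t + 2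
  | ⟨Sum.inr s, a⟩, ⟨Sum.inr s', b⟩ =>
      ((s' : ℕ) = s + 1 ∧ blk h s a b) ∨ ((s : ℕ) = s' + 1 ∧ blk h s' a b)

theorem adj_symm' {h : ℕ} {u v : V h} (H : adj u v) : adj v u := by
  rcases u with ⟨⟨t, x, _ | ⟨σ, i⟩⟩ | s, a⟩ <;> rcases v with ⟨⟨t', x', _ | ⟨σ', j⟩⟩ | s', b⟩ <;>
    simp only [adj] at H ⊢
  · exact ⟨H.1.symm, H.2.1.symm, H.2.2⟩
  · exact H
  · exact ⟨H.1.symm, H.2.1.symm, H.2.2⟩
  · exact ⟨H.1.symm, H.2.1.symm, H.2.2.1.symm, H.2.2.2.symm⟩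
  · exact H
  · exact H
  · exact H
  · rcases H with H | H
    · exact Or.inr ⟨H.1, blk_symm.mp H.2⟩
    · exact Or.inl ⟨H.1, blk_symm.mp H.2⟩

theorem adj_symm {h : ℕ} {u v : V h} : adj u v ↔ adj v u := ⟨adj_symm', adj_symm'⟩

/-- The forbidden pattern. -/
def pat (i j : Fin 44) : Bool :=
  if i.val < 42 then (if j.val < 42 then decide (i ≠ j) else decide (i.val + 42 = j.val))
  else (if j.val < 42 then decide (j.val + 42 = i.val) else decide (i.val = 42 ∨ j.val = 42))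

theorem pat_symm (i j : Fin 44) : pat i j = pat j i := by
  unfold pat
  split_ifs <;> simp [eq_comm, or_comm]

def IsCopy {h : ℕ} (B : V h → V h → Prop) (x y : Fin 44 → V h) : Prop :=
  StrictMono x ∧ StrictMono y ∧ ∀ i j, B (x i) (y j) ↔ pat i j = true

theorem IsCopy.transpose {h : ℕ} {B : V h → V h → Prop} {x y : Fin 44 → V h}
    (H : IsCopy B x y) : IsCopy (fun u v => B v u) y x :=
  ⟨H.2.1, H.1, fun i j => by rw [pat_symm]; exact H.2.2 j i⟩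

theorem IsCopy.swap {h : ℕ} {x y : Fin 44 → V h} (H : IsCopy adj x y) : IsCopy adj y x :=
  ⟨H.2.1, H.1, fun i j => by rw [pat_symm, adj_symm]; exact H.2.2 j i⟩

end Vale.Agent.P037
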