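import Mathlib
import Vale.Agent.P037.Host

namespace Vale.Agent.P037

def Unch {h : ℕ} (B : V h → V h → Prop) (i j : Fin (2 ^ h)) : Prop :=
  ∀ κ κ' : Cls h, B ⟨κ, i⟩ ⟨κ', j⟩ ↔ adj ⟨κ, i⟩ ⟨κ', j⟩

def rowv {h : ℕ} (t : Fin (2 * h + 1)) (x : Bool) (p a : Fin (2 ^ h)) (s : Fin (2 * h + 3))
    (i : Fin 44) : V h :=
  if hi : i.val < 42 then ⟨Sum.inl (t, x, some (true, ⟨i, hi⟩)), p⟩
  else if i.val = 42 then ⟨Sum.inl (t, x, none), p⟩ else ⟨Sum.inr s, a⟩

def colv {h : ℕ} (t : Fin (2 * h + 1)) (x : Bool) (q b' b : Fin (2 ^ h)) (s' s : Fin (2 * h + 3))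
    (j : Fin 44) : V h :=
  if hj : j.val < 42 then ⟨Sum.inl (t, x, some (false, ⟨j, hj⟩)), q⟩
  else if j.val = 42 then ⟨Sum.inr s', b'⟩ else ⟨Sum.inr s, b⟩

theorem rowv_mono {h : ℕ} (t : Fin (2 * h + 1)) (x : Bool) (p a : Fin (2 ^ h))
    (s : Fin (2 * h + 3)) : StrictMono (rowv t x p a s) := by
  intro i j hij
  rw [Fin.lt_def] at hij
  have := j.2
  unfold rowv
  split_ifs <;> rw [lt_iff] <;>
    simp only [key, kc, true_and, lt_self_iff_false, false_or, or_false, and_false] <;> omega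

theorem colv_mono {h : ℕ} (t : Fin (2 * h + 1)) (x : Bool) (q b' b : Fin (2 ^ h))
    (s' s : Fin (2 * h + 3)) (hb : (b' : ℕ) ≤ b) (hs : (s' : ℕ) < s) :
    StrictMono (colv t x q b' b s' s) := by
  intro i j hij
  rw [Fin.lt_def] at hij
  have := j.2
  unfold colv
  split_ifs <;> rw [lt_iff] <;>
    simp only [key, kc, true_and, lt_self_iff_false, false_or, or_false, and_false] <;> omega

theorem step {h : ℕ} {B : V h → V h → Prop} (hfree : ∀ x y, ¬ IsCopy B x y)
    (t : Fin (2 * h + 1)) (s0 s1 s2 : Fin (2 * h + 3)) (h0 : (s0 : ℕ) = t)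
    (h1 : (s1 : ℕ) = t + 1) (h2 : (s2 : ℕ) = t + 2) {p q a b' b : Fin (2 ^ h)}
    (u1 : Unch B p q) (u2 : Unch B p b') (u3 : Unch B p b) (u4 : Unch B a q)
    (hb : (b' : ℕ) ≤ b) (hs : srcOK h t (bit h t a) b') (hg : tgtOK h t (bit h t a) b)
    (H : B ⟨Sum.inr s1, a⟩ ⟨Sum.inr s0, b'⟩) : B ⟨Sum.inr s1, a⟩ ⟨Sum.inr s2, b⟩ := by
  by_contra hn
  refine hfree (rowv t (bit h t a) p a s1) (colv t (bit h t a) q b' b s0 s2)
    ⟨rowv_mono _ _ _ _ _, colv_mono _ _ _ _ _ _ _ hb (by omega), fun i j => ?_⟩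
  have hi := i.2
  have hj := j.2
  unfold rowv colv pat
  split_ifs with c1 c2 c3 c4 c5 c6 c7 c8
  · rw [u1]
    simp [adj, Fin.ext_iff]
  · rw [u2]
    simp only [adj, role, if_true, Fin.ext_iff, decide_eq_true_eq]
    constructor
    · rintro (⟨e, -⟩ | ⟨-, e, -⟩)
      · simp at e; omega
      · omega
    · intro e
      exact Or.inl ⟨by simp; omega, h0, hs⟩
  · rw [u3]
    simp only [adj, role, if_true, Fin.ext_iff, decide_eq_true_eq]
    constructor
    · rintro (⟨-, e, -⟩ | ⟨e, -⟩)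
      · omega
      · simp at e; omega
    · intro e
      exact Or.inr ⟨by simp; omega, h2, hg⟩
  · rw [u1]
    simp only [adj, Fin.ext_iff, decide_eq_true_eq, true_and]
    simp
    omega
  · rw [u2]
    simp only [adj, decide_eq_true_eq]
    omega
  · rw [u3]
    simp only [adj, decide_eq_true_eq]
    omega
  · rw [u4]
    simp only [adj, role, Fin.ext_iff, decide_eq_true_eq]
    simp
    omega
  · simp only [decide_eq_true_eq]
    exact ⟨fun _ => by omega, fun _ => H⟩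
  · simp only [decide_eq_true_eq]
    exact ⟨fun hh => absurd hh hn, fun hh => by omega⟩

def Rel {h : ℕ} (B : V h → V h → Prop) (i j : Fin (2 ^ h)) : Prop :=
  ∀ i' j', (i' = i ∨ i' = i.rev) → (j' = j ∨ j' = j.rev) → Unch B i' j' ∧ Unch B j' i'

theorem Rel.symm {h : ℕ} {B : V h → V h → Prop} {i j : Fin (2 ^ h)} (H : Rel B i j) :
    Rel B j i := fun i' j' h1 h2 => (H j' i' h2 h1).symm

theorem Rel.rev {h : ℕ} {B : V h → V h → Prop} {i j : Fin (2 ^ h)} (H : Rel B i j) :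
    Rel B i j.rev := fun i' j' h1 h2 => H i' j' h1 (by rw [Fin.rev_rev] at h2; exact h2.symm)

theorem Unch.tr {h : ℕ} {B : V h → V h → Prop} {i j : Fin (2 ^ h)} (H : Unch B i j) :
    Unch (fun u v => B v u) j i := fun κ κ' => by
  rw [adj_symm]
  exact H κ' κ

theorem Rel.tr {h : ℕ} {B : V h → V h → Prop} {i j : Fin (2 ^ h)} (H : Rel B i j) :
    Rel (fun u v => B v u) i j := fun i' j' h1 h2 =>
  ⟨(H i' j' h1 h2).2.tr, (H i' j' h1 h2).1.tr⟩

structure Hyp {h : ℕ} (B : V h → V h → Prop) (p q a : Fin (2 ^ h)) : Prop where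
  free : ∀ x y, ¬ IsCopy B x y
  pq : Rel B p q
  pa : Rel B p a
  qa : Rel B q a
  le1 : (q : ℕ) ≤ a
  le2 : (q : ℕ) ≤ a.rev

theorem Hyp.tr {h : ℕ} {B : V h → V h → Prop} {p q a : Fin (2 ^ h)} (H : Hyp B p q a) :
    Hyp (fun u v => B v u) p q a.rev :=
  ⟨fun x y hc => H.free y x hc.transpose, H.pq.tr, H.pa.tr.rev, H.qa.tr.rev, H.le2,
    by rw [Fin.rev_rev]; exact H.le1⟩

theorem rev_sum {h : ℕ} (a : Fin (2 ^ h)) : (a : ℕ) + a.rev + 1 = 2 ^ h := by
  rw [Fin.val_rev]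
  have := a.2
  omega

theorem chain {h : ℕ} (hh : 1 ≤ h) {p q : Fin (2 ^ h)} (t : ℕ) (ht : t + 1 ≤ 2 * h) :
    ∀ (B : V h → V h → Prop) (a : Fin (2 ^ h)), Hyp B p q a →
      B ⟨Sum.inr ⟨t + 1, by omega⟩, a⟩ ⟨Sum.inr ⟨t + 2, by omega⟩, a.rev⟩ := by
  induction t with
  | zero =>
    intro B a H
    refine step H.free ⟨0, by omega⟩ ⟨0, by omega⟩ _ _ rfl rfl rfl (b' := q) (p := p) (q := q)
      (H.pq _ _ (Or.inl rfl) (Or.inl rfl)).1 (H.pq _ _ (Or.inl rfl) (Or.inl rfl)).1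
      (H.pa _ _ (Or.inl rfl) (Or.inr rfl)).1 (H.qa _ _ (Or.inl rfl) (Or.inl rfl)).2 H.le2
      (Or.inl (Nat.zero_le _)) (Or.inr (bit_compl hh (Nat.zero_le _) (rev_sum a))) ?_
    rw [(H.qa _ _ (Or.inl rfl) (Or.inl rfl)).2]
    simp only [adj]
    exact Or.inr ⟨trivial, blk_zero _ _ _⟩
  | succ t ih =>
    intro B a H
    have h1 := ih (by omega) _ _ H.tr
    rw [Fin.rev_rev] at h1
    exact step H.free ⟨t + 1, by omega⟩ ⟨t + 1, by omega⟩ _ _ rfl rfl rfl (b' := a.rev)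
      (p := p) (q := q)
      (H.pq _ _ (Or.inl rfl) (Or.inl rfl)).1 (H.pa _ _ (Or.inl rfl) (Or.inr rfl)).1
      (H.pa _ _ (Or.inl rfl) (Or.inr rfl)).1 (H.qa _ _ (Or.inl rfl) (Or.inl rfl)).2 le_rfl
      (Or.inr (bit_compl hh (by simp only; omega) (rev_sum a)))
      (Or.inr (bit_compl hh (by simp only; omega) (rev_sum a))) h1

theorem Hyp.false {h : ℕ} (hh : 1 ≤ h) {B : V h → V h → Prop} {p q a : Fin (2 ^ h)}
    (H : Hyp B p q a) : False := by
  have h1 := chain hh (2 * h - 1) (by omega) _ _ H.tr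
  rw [Fin.rev_rev] at h1
  have h2 := step H.free ⟨2 * h, by omega⟩ ⟨2 * h - 1 + 1, by omega⟩ ⟨2 * h - 1 + 2, by omega⟩
      ⟨2 * h + 2, by omega⟩ (by simp only; omega) (by simp only; omega) rfl (b' := a.rev)
      (b := q.rev) (p := p) (q := q)
      (H.pq _ _ (Or.inl rfl) (Or.inl rfl)).1 (H.pa _ _ (Or.inl rfl) (Or.inr rfl)).1
      (H.pq _ _ (Or.inl rfl) (Or.inr rfl)).1 (H.qa _ _ (Or.inl rfl) (Or.inl rfl)).2
      (by have := H.le1; have := rev_sum a; have := rev_sum q; omega)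
      (Or.inr (bit_compl hh (by simp only; omega) (rev_sum a)))
      (Or.inl (by simp only; omega)) h1
  rw [(H.qa _ _ (Or.inr rfl) (Or.inl rfl)).2] at h2
  simp only [adj] at h2
  rcases h2 with h2 | h2
  · have e : 2 * h - 1 + 2 = 2 * h + 1 := by omega
    rw [e] at h2
    exact not_blk_last a.2 q.rev.2 h2.2
  · omega

theorem no_triangle {h : ℕ} (hh : 1 ≤ h) {B : V h → V h → Prop}
    (hfree : ∀ x y, ¬ IsCopy B x y) {u v w : Fin (2 ^ h)} (h1 : Rel B u v) (h2 : Rel B u w)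
    (h3 : Rel B v w) : False := by
  have key : ∀ v w : Fin (2 ^ h), Rel B u v → Rel B u w → Rel B v w →
      min (v : ℕ) v.rev ≤ min (w : ℕ) w.rev → False := by
    intro v w h1 h2 h3 hle
    rcases le_total (v : ℕ) v.rev with hv | hv
    · exact Hyp.false hh (p := u) (q := v) (a := w) ⟨hfree, h1, h2, h3, by omega, by omega⟩
    · exact Hyp.false hh (p := u) (q := v.rev) (a := w)
        ⟨hfree, h1.rev, h2, h3.symm.rev.symm, by omega, by omega⟩
  rcases le_total (min (v : ℕ) v.rev) (min (w : ℕ) w.rev) with hle | hle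
  · exact key v w h1 h2 h3 hle
  · exact key w v h2 h1 h3.symm hle

theorem exists_triangle {ι : Type*} [Fintype ι] [DecidableEq ι] (D : Finset (ι × ι))
    (hD : 3 * D.card < Fintype.card ι ^ 2) :
    ∃ u v w, (u, v) ∉ D ∧ (u, w) ∉ D ∧ (v, w) ∉ D := by
  by_contra hn
  push Not at hn
  have hsub : (Finset.univ : Finset (ι × ι × ι)) ⊆
      ((D ×ˢ Finset.univ).image fun z : (ι × ι) × ι => (z.1.1, z.1.2, z.2)) ∪
      ((D ×ˢ Finset.univ).image fun z : (ι × ι) × ι => (z.1.1, z.2, z.1.2)) ∪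
      ((D ×ˢ Finset.univ).image fun z : (ι × ι) × ι => (z.2, z.1.1, z.1.2)) := by
    rintro ⟨u, v, w⟩ -
    simp only [Finset.mem_union, Finset.mem_image, Finset.mem_product, Finset.mem_univ, and_true]
    by_cases c1 : (u, v) ∈ D
    · exact Or.inl (Or.inl ⟨((u, v), w), c1, rfl⟩)
    by_cases c2 : (u, w) ∈ D
    · exact Or.inl (Or.inr ⟨((u, w), v), c2, rfl⟩)
    exact Or.inr ⟨((v, w), u), hn u v w c1 c2, rfl⟩
  have h1 := Finset.card_le_card hsub
  have h2 : ∀ f : (ι × ι) × ι → ι × ι × ι,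
      ((D ×ˢ (Finset.univ : Finset ι)).image f).card ≤ D.card * Fintype.card ι := fun f =>
    Finset.card_image_le.trans (by simp)
  have h3 := h1.trans ((Finset.card_union_le _ _).trans (add_le_add
    ((Finset.card_union_le _ _).trans (add_le_add (h2 _) (h2 _))) (h2 _)))
  simp only [Finset.card_univ, Fintype.card_prod] at h3
  have hpos : 0 < Fintype.card ι := by
    rcases Nat.eq_zero_or_pos (Fintype.card ι) with h0 | h0
    · rw [h0] at hD; simp at hD
    · exact h0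
  nlinarith

open Classical in
theorem far {h : ℕ} (hh : 1 ≤ h) {B : V h → V h → Prop} (hfree : ∀ x y, ¬ IsCopy B x y) :
    (2 ^ h) ^ 2 ≤ 24 * (Finset.univ.filter fun z : V h × V h =>
      ¬ (B z.1 z.2 ↔ adj z.1 z.2)).card := by
  by_contra hn
  rw [not_le] at hn
  obtain ⟨C, hC⟩ : ∃ C, C = Finset.univ.filter fun z : V h × V h =>
      ¬ (B z.1 z.2 ↔ adj z.1 z.2) := ⟨_, rfl⟩
  rw [← hC] at hn
  let g : (V h × V h) × Bool × Bool × Bool → Fin (2 ^ h) × Fin (2 ^ h) := fun z =>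
    let i := if z.2.1 then z.1.1.i else z.1.2.i
    let j := if z.2.1 then z.1.2.i else z.1.1.i
    (if z.2.2.1 then i else i.rev, if z.2.2.2 then j else j.rev)
  obtain ⟨u, v, w, h1, h2, h3⟩ := exists_triangle ((C ×ˢ Finset.univ).image g) (by
    have : ((C ×ˢ Finset.univ).image g).card ≤ C.card * 8 :=
      Finset.card_image_le.trans (by simp)
    rw [Fintype.card_fin]
    omega)
  have key : ∀ u v, (u, v) ∉ (C ×ˢ Finset.univ).image g → Rel B u v := by
    intro u v huv i' j' hi hj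
    simp only [Finset.mem_image, Finset.mem_product, Finset.mem_univ, and_true, not_exists,
      not_and] at huv
    constructor
    · intro κ κ'
      by_contra hc
      have hm : ((⟨κ, i'⟩, ⟨κ', j'⟩) : V h × V h) ∈ C := by
        rw [hC]; simpa using hc
      rcases hi with rfl | rfl <;> rcases hj with rfl | rfl
      · exact huv (_, true, true, true) hm rfl
      · exact huv (_, true, true, false) hm (by simp [g])
      · exact huv (_, true, false, true) hm (by simp [g])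
      · exact huv (_, true, false, false) hm (by simp [g])
    · intro κ κ'
      by_contra hc
      have hm : ((⟨κ, j'⟩, ⟨κ', i'⟩) : V h × V h) ∈ C := by
        rw [hC]; simpa using hc
      rcases hi with rfl | rfl <;> rcases hj with rfl | rfl
      · exact huv (_, false, true, true) hm rfl
      · exact huv (_, false, true, false) hm (by simp [g])
      · exact huv (_, false, false, true) hm (by simp [g])
      · exact huv (_, false, false, false) hm (by simp [g])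
  exact no_triangle hh hfree (key _ _ h1) (key _ _ h2) (key _ _ h3)

end Vale.Agent.P037
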