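import Mathlib
import Vale.Agent.P037.Host

namespace Vale.Agent.P037

abbrev Col := (Bool × Bool × Bool × Bool) ⊕ (Bool × Bool × Option Bool × Bool)

def color {h : ℕ} : V h → Col
  | ⟨Sum.inr s, b⟩ => Sum.inl (decide (s.val / 2 % 2 = 1), bit h (s - 2) b, bit h (s - 1) b,
      bit h s b)
  | ⟨Sum.inl (t, x, none), _⟩ => Sum.inr (x, decide (t.val / 2 % 2 = 1), none, true)
  | ⟨Sum.inl (t, x, some (σ, i)), _⟩ =>
      Sum.inr (x, decide (t.val / 2 % 2 = 1), some σ, decide (i = 0))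

def IsS {h : ℕ} (u : V h) : Prop := ∃ t x σ i, u.c = Sum.inl (t, x, some (σ, i))

theorem nested_anchor {h : ℕ} {g : Fin (2 * h + 1) × Bool × Kind} {a a' : Fin (2 ^ h)} {w : V h}
    (H : adj w ⟨Sum.inl g, a⟩) : adj w ⟨Sum.inl g, a'⟩ := by
  rcases g with ⟨t, x, _ | ⟨σ, i⟩⟩ <;> rcases w with ⟨⟨t', x', _ | ⟨σ', j⟩⟩ | s', b⟩ <;>
    simp only [adj] at H ⊢ <;> exact H

theorem nested_body {h : ℕ} {s : Fin (2 * h + 3)} {b b' : Fin (2 ^ h)} {w : V h}
    (h1 : bit h (s - 2) b = bit h (s - 2) b') (h2 : bit h (s - 1) b = bit h (s - 1) b')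
    (h3 : bit h s b = bit h s b') (hb : (b : ℕ) ≤ b')
    (H : adj w ⟨Sum.inr s, b⟩) : adj w ⟨Sum.inr s, b'⟩ := by
  rcases w with ⟨⟨t', x', _ | ⟨σ', j⟩⟩ | s', a⟩ <;> simp only [adj] at H ⊢
  · exact H
  · unfold role at H ⊢
    split_ifs at H ⊢
    · rcases H with ⟨e1, e2, e3⟩ | ⟨e1, e2, e3⟩
      · refine Or.inl ⟨e1, e2, ?_⟩
        unfold srcOK at e3 ⊢
        rw [← e2, ← h3, e2]
        exact e3
      · refine Or.inr ⟨e1, e2, ?_⟩
        unfold tgtOK at e3 ⊢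
        have : (s : ℕ) - 2 = t' := by omega
        rw [this] at h1
        rw [← h1]
        exact e3
    · obtain ⟨e1, e2, e3⟩ := H
      refine ⟨e1, e2, ?_⟩
      have : (s : ℕ) - 1 = t' := by omega
      rw [this] at h2
      rw [← h2]
      exact e3
  · rcases H with H | H
    · exact Or.inl ⟨H.1, blk_mono hb H.2⟩
    · exact Or.inr ⟨H.1, blk_mono hb H.2⟩

theorem same_class {h : ℕ} {u v v' : V h} (hu : ¬ IsS u) (h1 : adj u v) (h2 : adj u v')
    (hc : color v = color v') : v.c = v'.c := by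
  rcases u with ⟨⟨t, x, _ | ⟨σ, i⟩⟩ | s, a⟩
  · rcases v with ⟨⟨t1, x1, _ | ⟨σ1, j1⟩⟩ | s1, b1⟩ <;>
      rcases v' with ⟨⟨t2, x2, _ | ⟨σ2, j2⟩⟩ | s2, b2⟩ <;>
      simp only [adj, color, reduceCtorEq, Sum.inl.injEq, Sum.inr.injEq, Prod.mk.injEq,
        decide_eq_decide] at h1 h2 hc ⊢
    · obtain ⟨rfl, rfl, rfl, rfl⟩ := h1
      obtain ⟨rfl, rfl, rfl, rfl⟩ := h2
      simp
    · exact Fin.ext (by omega)
  · exact absurd ⟨t, x, σ, i, rfl⟩ hu
  · rcases v with ⟨⟨t1, x1, _ | ⟨σ1, j1⟩⟩ | s1, b1⟩ <;>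
      rcases v' with ⟨⟨t2, x2, _ | ⟨σ2, j2⟩⟩ | s2, b2⟩ <;>
      simp only [adj, color, reduceCtorEq, Sum.inl.injEq, Sum.inr.injEq, Prod.mk.injEq,
        decide_eq_decide, Option.some.injEq, false_and, and_false] at h1 h2 hc ⊢
    · exact ⟨Fin.ext (by omega), hc.1, trivial⟩
    · obtain ⟨rfl, e2, rfl, e4⟩ := hc
      unfold role at h1 h2
      split_ifs at h1 h2
      · rcases h1 with ⟨rfl, a2, -⟩ | ⟨rfl, a2, -⟩ <;> rcases h2 with ⟨rfl, b2, -⟩ | ⟨rfl, b2, -⟩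
        · exact ⟨Fin.ext (by omega), rfl, rfl, rfl⟩
        · simp at e4
        · simp at e4
        · exact ⟨Fin.ext (by omega), rfl, rfl, rfl⟩
      · obtain ⟨rfl, a2, -⟩ := h1
        obtain ⟨rfl, b2, -⟩ := h2
        exact ⟨Fin.ext (by omega), rfl, rfl, rfl⟩
    · exact Fin.ext (by omega)

theorem nested {h : ℕ} {u v v' w : V h} (hu : ¬ IsS u) (h1 : adj u v) (h2 : adj u v')
    (hc : color v = color v') (hlt : v < v') (H : adj w v) : adj w v' := by
  have he := same_class hu h1 h2 hc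
  rcases v with ⟨g | s, b⟩ <;> rcases v' with ⟨g' | s', b'⟩ <;>
    simp only [reduceCtorEq, Sum.inl.injEq, Sum.inr.injEq] at he
  · subst he
    exact nested_anchor H
  · subst he
    simp only [color, Sum.inl.injEq, Prod.mk.injEq] at hc
    rw [lt_iff] at hlt
    simp only [key] at hlt
    exact nested_body hc.2.1 hc.2.2.1 hc.2.2.2 (by omega) H

def up (i : Fin 42) : Fin 44 := ⟨i, by omega⟩

theorem pat_up (i j : Fin 42) : pat (up i) (up j) = true ↔ i ≠ j := by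
  simp [pat, up, Fin.ext_iff]

theorem up_lt {i j : Fin 42} (h : i < j) : up i < up j := h

theorem isS_of_copy {h : ℕ} {x y : Fin 44 → V h} (H : IsCopy adj x y) (i : Fin 42) :
    IsS (x (up i)) := by
  by_contra hn
  obtain ⟨j, j', hne, hc⟩ := Fintype.exists_ne_map_eq_of_card_lt
    (fun j : Fin 41 => color (y (up (i.succAbove j)))) (by simp)
  have key : ∀ j j' : Fin 41, j < j' →
      color (y (up (i.succAbove j))) = color (y (up (i.succAbove j'))) → False := by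
    intro j j' hlt hc
    have hlt' : i.succAbove j < i.succAbove j' := Fin.strictMono_succAbove i hlt
    have a1 := (H.2.2 (up i) (up (i.succAbove j))).mpr
      ((pat_up _ _).mpr (Fin.succAbove_ne i j).symm)
    have a2 := (H.2.2 (up i) (up (i.succAbove j'))).mpr
      ((pat_up _ _).mpr (Fin.succAbove_ne i j').symm)
    have a3 := (H.2.2 (up (i.succAbove j')) (up (i.succAbove j))).mpr
      ((pat_up _ _).mpr hlt'.ne')
    have a4 := nested hn a1 a2 hc (H.2.1 (up_lt hlt')) a3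
    exact (pat_up _ _).mp ((H.2.2 _ _).mp a4) rfl
  rcases lt_or_gt_of_ne hne with hlt | hlt
  · exact key j j' hlt hc
  · exact key j' j hlt hc.symm

theorem exists_third (i i' : Fin 42) : ∃ j : Fin 42, j ≠ i ∧ j ≠ i' := by
  by_cases h0 : (0 : Fin 42) ≠ i ∧ (0 : Fin 42) ≠ i'
  · exact ⟨0, h0⟩
  by_cases h1 : (1 : Fin 42) ≠ i ∧ (1 : Fin 42) ≠ i'
  · exact ⟨1, h1⟩
  refine ⟨2, ?_⟩
  simp only [ne_eq, Fin.ext_iff] at h0 h1 ⊢
  constructor <;> (intro h; simp at h h0 h1; omega)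

theorem anchor_form {h : ℕ} {x y : Fin 44 → V h} (H : IsCopy adj x y) :
    ∃ t b σ, (∀ i, (x (up i)).c = Sum.inl (t, b, some (σ, i))) ∧
      ∀ j, (y (up j)).c = Sum.inl (t, b, some (!σ, j)) := by
  choose t b σ ι hx using isS_of_copy H
  choose t' b' σ' ι' hy using isS_of_copy H.swap
  have hadj : ∀ i j, (t i = t' j ∧ b i = b' j ∧ σ i ≠ σ' j ∧ ι i ≠ ι' j) ↔ i ≠ j := by
    intro i j
    rw [← pat_up i j, ← H.2.2]
    have e1 : x (up i) = ⟨Sum.inl (t i, b i, some (σ i, ι i)), (x (up i)).i⟩ := by rw [← hx]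
    have e2 : y (up j) = ⟨Sum.inl (t' j, b' j, some (σ' j, ι' j)), (y (up j)).i⟩ := by rw [← hy]
    rw [e1, e2]
    simp only [adj]
  have hsame : ∀ i j, t i = t' j ∧ b i = b' j ∧ σ i ≠ σ' j := by
    intro i j
    by_cases hij : i = j
    · subst hij
      obtain ⟨j₁, c1, -⟩ := exists_third i i
      obtain ⟨i₁, c2, c3⟩ := exists_third i j₁
      have d1 := (hadj i j₁).mpr c1.symm
      have d2 := (hadj i₁ j₁).mpr c3
      have d3 := (hadj i₁ i).mpr c2
      refine ⟨by rw [d1.1, ← d2.1, d3.1], by rw [d1.2.1, ← d2.2.1, d3.2.1], ?_⟩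
      have e1 := d1.2.2.1
      have e2 := d2.2.2.1
      have e3 := d3.2.2.1
      revert e1 e2 e3
      cases σ i <;> cases σ' j₁ <;> cases σ i₁ <;> cases σ' i <;> simp
    · have := (hadj i j).mpr hij
      exact ⟨this.1, this.2.1, this.2.2.1⟩
  have hι : ∀ i j, ι i = ι' j ↔ i = j := by
    intro i j
    have := hadj i j
    have h2 := hsame i j
    tauto
  have ht : ∀ i, t i = t 0 := fun i => by rw [(hsame i 0).1, (hsame 0 0).1]
  have hb : ∀ i, b i = b 0 := fun i => by rw [(hsame i 0).2.1, (hsame 0 0).2.1]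
  have hσ : ∀ i, σ i = σ 0 := fun i => by
    have e1 := (hsame i 0).2.2
    have e2 := (hsame 0 0).2.2
    revert e1 e2
    cases σ i <;> cases σ' 0 <;> cases σ 0 <;> simp
  have hinj : Function.Injective ι := fun i j hij => (hι i j).mp (hij.trans ((hι j j).mpr rfl))
  have hmono : StrictMono ι := by
    intro i j hij
    refine lt_of_le_of_ne ?_ (hinj.ne hij.ne)
    have hlt := H.1 (up_lt hij)
    have e1 : x (up i) = ⟨Sum.inl (t 0, b 0, some (σ 0, ι i)), (x (up i)).i⟩ := by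
      rw [← ht i, ← hb i, ← hσ i, ← hx]
    have e2 : x (up j) = ⟨Sum.inl (t 0, b 0, some (σ 0, ι j)), (x (up j)).i⟩ := by
      rw [← ht j, ← hb j, ← hσ j, ← hx]
    rw [e1, e2, lt_iff] at hlt
    simp only [key] at hlt
    rw [Fin.le_def]
    cases hs : σ 0 <;> rw [hs] at hlt <;> simp only [kc] at hlt <;> omega
  have hid : ι = id := hmono.eq_id
  refine ⟨t 0, b 0, σ 0, fun i => ?_, fun j => ?_⟩
  · rw [hx, ht, hb, hσ, hid]
    rfl
  · rw [hy, ← (hsame 0 j).1, ← (hsame 0 j).2.1, ← (hι j j).mpr rfl, hid]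
    have := (hsame 0 j).2.2
    revert this
    cases σ 0 <;> cases σ' j <;> simp

theorem role_of_only {h : ℕ} {u : V h} {t : Fin (2 * h + 1)} {b σ : Bool} {y : Fin 42 → V h}
    (hy : ∀ j, (y j).c = Sum.inl (t, b, some (σ, j))) (v : Fin 42)
    (hadj : ∀ j, adj u (y j) ↔ j = v) (hv : ¬ (σ = false ∧ v = 0)) :
    ∃ s, u.c = Sum.inr s ∧ role h t b σ v s u.i := by
  have e : ∀ j, y j = ⟨Sum.inl (t, b, some (σ, j)), (y j).i⟩ := fun j => by rw [← hy]
  have h1 := (hadj v).mpr rfl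
  rw [e] at h1
  rcases u with ⟨⟨t1, x1, _ | ⟨σ1, i⟩⟩ | s, a⟩ <;> simp only [adj] at h1
  · exact absurd h1.2.2 hv
  · exfalso
    obtain ⟨j, c1, c2⟩ := exists_third i v
    apply c2
    rw [← hadj, e]
    simp only [adj]
    exact ⟨h1.1, h1.2.1, h1.2.2.1, c1.symm⟩
  · exact ⟨s, rfl, h1⟩

theorem pat_43_up (j : Fin 42) : pat 43 (up j) = true ↔ j = 1 := by
  revert j
  decide

theorem pat_42_up (j : Fin 42) : pat 42 (up j) = true ↔ j = 0 := by
  revert j
  decide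

theorem thin_aux {h : ℕ} {x y : Fin 44 → V h} (H : IsCopy adj x y) {t : Fin (2 * h + 1)}
    {b : Bool} (hx : ∀ i, (x (up i)).c = Sum.inl (t, b, some (true, i)))
    (hy : ∀ j, (y (up j)).c = Sum.inl (t, b, some (false, j))) :
    ((x 43).i : ℕ) + (y 43).i + 1 = 2 ^ h := by
  obtain ⟨s1, e1, r1⟩ := role_of_only (u := x 43) hy 1 (fun j => by
    rw [H.2.2, pat_43_up]) (by simp)
  obtain ⟨s2, e2, r2⟩ := role_of_only (u := y 42) hx 0 (fun j => by
    rw [adj_symm, H.2.2, pat_symm, pat_42_up]) (by simp)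
  obtain ⟨s3, e3, r3⟩ := role_of_only (u := y 43) hx 1 (fun j => by
    rw [adj_symm, H.2.2, pat_symm, pat_43_up]) (by simp)
  have f1 : x 43 = ⟨Sum.inr s1, (x 43).i⟩ := by rw [← e1]
  have f2 : y 42 = ⟨Sum.inr s2, (y 42).i⟩ := by rw [← e2]
  have f3 : y 43 = ⟨Sum.inr s3, (y 43).i⟩ := by rw [← e3]
  have g1 := (H.2.2 43 42).mpr (by decide)
  have g2 : ¬ adj (x 43) (y 43) := fun hh => absurd ((H.2.2 43 43).mp hh) (by decide)
  have g3 : y 42 < y 43 := H.2.1 (by decide)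
  rw [f1, f2] at g1
  rw [f1, f3] at g2
  rw [f2, f3, lt_iff] at g3
  simp only [adj, key] at g1 g2 g3
  simp only [role, Bool.false_eq_true, if_false, if_true, true_and] at r1 r2 r3
  have r2' : (s2 : ℕ) = t ∧ srcOK h t b (y 42).i := by
    rcases r2 with r2 | r2
    · exact r2
    · exact absurd r2.1 (by decide)
  have r3' : (s3 : ℕ) = t + 2 ∧ tgtOK h t b (y 43).i := by
    rcases r3 with r3 | r3
    · exact absurd r3.1 (by decide)
    · exact r3
  refine blk_step (t := t) (b' := (y 42).i) (x := b) (by omega) (by omega) r1.2 r2'.2 r3'.2 ?_ ?_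
  · rcases g1 with g1 | g1
    · omega
    · rw [← r2'.1]
      exact g1.2
  · intro hh
    apply g2
    left
    refine ⟨by omega, ?_⟩
    rw [r1.1]
    exact hh

theorem thin {h : ℕ} {x y : Fin 44 → V h} (H : IsCopy adj x y) :
    ((x 43).i : ℕ) + (y 43).i + 1 = 2 ^ h := by
  obtain ⟨t, b, σ, hx, hy⟩ := anchor_form H
  cases σ
  · have := thin_aux H.swap hy hx
    omega
  · exact thin_aux H hx hy

end Vale.Agent.P037
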