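import Mathlib
import Vale.Agent.P037.Defs
import Vale.Agent.P037.Legit
import Vale.Agent.P037.Far

open Filter Topology

namespace Vale.Agent.P037

noncomputable def enum (h : ℕ) : Fin (Fintype.card (V h)) ≃o V h := monoEquivOfFin (V h) rfl

open Classical in
noncomputable def host (h : ℕ) (r c : Fin (Fintype.card (V h))) : Bool :=
  decide (adj (enum h r) (enum h c))

theorem card_V (h : ℕ) : Fintype.card (V h) = Fintype.card (Cls h) * 2 ^ h := by
  rw [Fintype.card_congr (V.equiv h), Fintype.card_prod, Fintype.card_fin]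

theorem card_Cls (h : ℕ) : Fintype.card (Cls h) = 342 * h + 173 := by
  simp only [Fintype.card_sum, Fintype.card_prod, Fintype.card_fin, Fintype.card_bool,
    Fintype.card_option]
  ring

theorem host_far {h : ℕ} (hh : 1 ≤ h) (B : Fin (Fintype.card (V h)) → Fin (Fintype.card (V h)) → Bool)
    (hB : numCopies pat B = 0) : (2 ^ h) ^ 2 ≤ 24 * numDiff (host h) B := by
  classical
  have hemp : copies pat B = ∅ := (Set.ncard_eq_zero (Set.toFinite _)).mp hB
  have hfree : ∀ x y, ¬ IsCopy (fun u v => B ((enum h).symm u) ((enum h).symm v) = true) x y := by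
    intro x y hc
    have : (((enum h).symm ∘ x, (enum h).symm ∘ y) : _ × _) ∈ copies pat B := by
      refine ⟨(enum h).symm.strictMono.comp hc.1, (enum h).symm.strictMono.comp hc.2.1,
        fun i j => ?_⟩
      exact Bool.eq_iff_iff.mpr (hc.2.2 i j)
    rw [hemp] at this
    exact this
  have h1 := far hh hfree
  refine h1.trans (Nat.mul_le_mul_left _ ?_)
  unfold numDiff
  refine Finset.card_le_card_of_injOn (fun z => ((enum h).symm z.1, (enum h).symm z.2)) ?_ ?_
  · intro z hz
    simp only [Finset.coe_filter, Finset.mem_univ, true_and, Set.mem_setOf_eq] at hz ⊢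
    intro he
    apply hz
    rw [← he]
    simp [host]
  · intro z _ z' _ he
    simp only [Prod.mk.injEq] at he
    exact Prod.ext ((enum h).symm.injective he.1) ((enum h).symm.injective he.2)

theorem host_dist {h : ℕ} (hh : 1 ≤ h) :
    1 / (24 * (Fintype.card (Cls h) : ℝ) ^ 2) ≤ distFree pat (host h) := by
  unfold distFree
  have hne : {d : ℕ | ∃ B : Fin (Fintype.card (V h)) → Fin (Fintype.card (V h)) → Bool,
      numCopies pat B = 0 ∧ d = numDiff (host h) B}.Nonempty := by
    refine ⟨_, fun _ _ => false, ?_, rfl⟩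
    unfold numCopies
    rw [Set.ncard_eq_zero (Set.toFinite _), Set.eq_empty_iff_forall_notMem]
    intro p hp
    have : false = pat 0 1 := hp.2.2 0 1
    exact absurd this (by decide)
  obtain ⟨B, hB, hd⟩ := Nat.sInf_mem hne
  rw [hd]
  have h1 : ((2 : ℝ) ^ h) ^ 2 ≤ 24 * (numDiff (host h) B : ℝ) := by
    exact_mod_cast host_far hh B hB
  have hQ : (0 : ℝ) < Fintype.card (Cls h) := by rw [card_Cls]; positivity
  have hn : (Fintype.card (V h) : ℝ) = Fintype.card (Cls h) * 2 ^ h := by
    rw [card_V]; push_cast; ring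
  rw [hn, div_le_div_iff₀ (by positivity) (by positivity)]
  nlinarith [sq_nonneg (Fintype.card (Cls h) : ℝ)]

theorem host_copies (h : ℕ) :
    numCopies pat (host h) ≤ Fintype.card (V h) ^ 87 * Fintype.card (Cls h) := by
  classical
  unfold numCopies
  have := Set.ncard_le_ncard_of_injOn (s := copies pat (host h))
    (t := (Set.univ : Set ((V h × Cls h) × (Fin 43 → Fin (Fintype.card (V h))) ×
      (Fin 43 → Fin (Fintype.card (V h))))))
    (fun p => ((enum h (p.1 43), (enum h (p.2 43)).c), fun i => p.1 i.castSucc,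
      fun i => p.2 i.castSucc)) (fun _ _ => Set.mem_univ _) ?_ (Set.toFinite _)
  · refine this.trans (le_of_eq ?_)
    rw [Set.ncard_univ, Nat.card_eq_fintype_card]
    simp only [Fintype.card_prod, Fintype.card_fun, Fintype.card_fin]
    ring
  · have hthin : ∀ p ∈ copies pat (host h),
        ((enum h (p.1 43)).i : ℕ) + (enum h (p.2 43)).i + 1 = 2 ^ h := by
      intro p hp
      refine thin (x := enum h ∘ p.1) (y := enum h ∘ p.2) ⟨(enum h).strictMono.comp hp.1,
        (enum h).strictMono.comp hp.2.1, fun i j => ?_⟩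
      rw [← hp.2.2 i j]
      simp [host]
    intro p hp p' hp' he
    simp only [Prod.mk.injEq] at he
    obtain ⟨⟨e1, e2⟩, e3, e4⟩ := he
    have t1 := hthin p hp
    have t2 := hthin p' hp'
    have e5 : enum h (p.2 43) = enum h (p'.2 43) := by
      apply (V.equiv h).injective
      refine Prod.ext e2 (Fin.ext ?_)
      rw [e1] at t1
      show ((enum h (p.2 43)).i : ℕ) = (enum h (p'.2 43)).i
      omega
    refine Prod.ext (funext fun i => ?_) (funext fun i => ?_)
    · refine Fin.lastCases ?_ (fun i => congrFun e3 i) i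
      exact (enum h).injective e1
    · refine Fin.lastCases ?_ (fun i => congrFun e4 i) i
      exact (enum h).injective e5

theorem main (c C : ℝ) (hc : 0 < c) :
    ∃ (n : ℕ) (ε : ℝ) (A : Fin n → Fin n → Bool), 1 ≤ n ∧ 0 < ε ∧ ε < 1 ∧ ε ≤ distFree pat A ∧
      (numCopies pat A : ℝ) < c * ε ^ C * (n : ℝ) ^ (2 * 44) := by
  obtain ⟨N, hN⟩ := exists_nat_ge C
  have hlim := (tendsto_pow_const_div_const_pow_of_one_lt (2 * N) (r := 2) (by norm_num)).const_mul
    ((24 * 515 ^ 2 : ℝ) ^ N)
  rw [mul_zero] at hlim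
  obtain ⟨h, h1, hh⟩ := ((hlim.eventually (gt_mem_nhds hc)).and (eventually_ge_atTop 1)).exists
  obtain ⟨Q, hQ⟩ : ∃ Q : ℝ, Q = Fintype.card (Cls h) := ⟨_, rfl⟩
  have hh' : (1 : ℝ) ≤ h := by exact_mod_cast hh
  have hQ1 : Q = 342 * h + 173 := by rw [hQ, card_Cls]; push_cast; ring
  have hQ2 : 1 ≤ Q := by linarith
  have hQ3 : Q ≤ 515 * h := by linarith
  have hn : (Fintype.card (V h) : ℝ) = Q * 2 ^ h := by
    rw [card_V, hQ]; push_cast; ring
  have hε0 : 0 < 1 / (24 * Q ^ 2) := by positivity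
  have hε1 : 1 / (24 * Q ^ 2) < 1 := by
    rw [div_lt_one (by positivity)]
    nlinarith
  refine ⟨Fintype.card (V h), 1 / (24 * Q ^ 2), host h, ?_, hε0, hε1, ?_, ?_⟩
  · rw [card_V, card_Cls]
    exact Nat.one_le_iff_ne_zero.mpr (by positivity)
  · rw [hQ]
    exact host_dist hh
  · have h2 : (numCopies pat (host h) : ℝ) ≤ (Fintype.card (V h) : ℝ) ^ 87 * Q := by
      rw [hQ]
      exact_mod_cast host_copies h
    have h3 : (1 / (24 * Q ^ 2)) ^ N ≤ (1 / (24 * Q ^ 2)) ^ C := by
      rw [← Real.rpow_natCast]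
      exact Real.rpow_le_rpow_of_exponent_ge hε0 hε1.le hN
    have h4 : (24 * Q ^ 2) ^ N < c * 2 ^ h := by
      rw [← mul_div_assoc, div_lt_iff₀ (by positivity)] at h1
      refine lt_of_le_of_lt ?_ h1
      rw [pow_mul, ← mul_pow]
      refine pow_le_pow_left₀ (by positivity) ?_ _
      nlinarith
    have h5 : 1 < c * (1 / (24 * Q ^ 2)) ^ N * 2 ^ h := by
      rw [one_div_pow, mul_one_div, div_mul_eq_mul_div, one_lt_div (by positivity)]
      exact h4
    have hpos : (0 : ℝ) < (Fintype.card (V h) : ℝ) ^ 87 * Q := by rw [hn]; positivity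
    have h6 : (Fintype.card (V h) : ℝ) ^ (2 * 44) = (Fintype.card (V h) : ℝ) ^ 87 * Q * 2 ^ h := by
      rw [mul_assoc, ← hn]; ring
    rw [h6]
    have h7 : c * (1 / (24 * Q ^ 2)) ^ N * 2 ^ h ≤ c * (1 / (24 * Q ^ 2)) ^ C * 2 ^ h := by
      gcongr
    nlinarith

end Vale.Agent.P037
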